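import Vale.Agent.P032.H437.Uf

/-!
# P032: the letters-only sweep at every slot

`w` a centre, `p = pt w (u + k)` a slot point, `x = pt p (u + m)` a slot point of the circle about
`p`.  When the time passes `u` the circle about the moving slot point of `w` passes near the moving
letter point of `S(p)` on the outer (inner) side; so some colour outside the whole limit palette
`lt F T w k` occurs there on the outer (inner) side.  No condition on `m`, `k`: the cases `m = k` and
`m = k + 3` (the circle passes `w` itself) are included, there the side depends on the half of the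
circle.
-/

open Set Filter Topology Metric

noncomputable section

namespace Vale.Agent.P032.H183

open Vale.Agent.P032.Six Vale.Agent.P032.Sweep Vale.Agent.P032.S5.H767 Vale.Agent.P032.S5.H122
  Vale.Agent.P032.H158 Vale.Agent.P032.H782 Vale.Agent.P032.H437

variable {U : Fin 6 → Set ℂ} {T : ℂ → Set (Fin 6)} {F F' : Ultrafilter ℝ} {w y p : ℂ}
  {u k m ε : ℝ}

theorem near_aux {j : ℝ} (hε : ε = 1 ∨ ε = -1) {κ : ℝ}
    (hj : 0 < κ * (ε * Real.sin (j * (Real.pi / 3)))) (w : ℂ) (t : ℝ) :
    ∀ᶠ s : ℝ in 𝓝 0, 0 < ε * s →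
      κ * (dist (pt (pt w t) (t + j)) (pt w (t + s)) ^ 2 - 1) < 0 := by
  have hp := Real.pi_pos
  have h2 : Real.sin (j * (Real.pi / 3)) =
      2 * Real.sin (j * (Real.pi / 6)) * Real.cos (j * (Real.pi / 6)) := by
    rw [← Real.sin_two_mul]
    congr 1
    ring
  have hc : Continuous fun s : ℝ =>
      κ * (ε * (Real.sin ((s - j) * (Real.pi / 6)) * Real.cos (j * (Real.pi / 6)))) := by
    fun_prop
  have h3 : ∀ᶠ s : ℝ in 𝓝 0,
      κ * (ε * (Real.sin ((s - j) * (Real.pi / 6)) * Real.cos (j * (Real.pi / 6)))) < 0 := by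
    refine hc.continuousAt.eventually (Iio_mem_nhds ?_)
    beta_reduce
    rw [show ((0 : ℝ) - j) * (Real.pi / 6) = -(j * (Real.pi / 6)) by ring, Real.sin_neg]
    rw [h2] at hj
    nlinarith
  have h4 : ∀ᶠ s : ℝ in 𝓝 0, |s| < 3 := by
    have : Continuous fun s : ℝ => |s| := continuous_abs
    refine this.continuousAt.eventually (Iio_mem_nhds ?_)
    norm_num
  filter_upwards [h3, h4] with s hs h5 h6
  have h7 : 0 < ε * Real.sin (s * (Real.pi / 6)) := by
    rw [abs_lt] at h5
    rcases hε with rfl | rfl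
    · rw [one_mul] at h6 ⊢
      exact Real.sin_pos_of_pos_of_lt_pi (by positivity) (by nlinarith)
    · have h8 : 0 < Real.sin ((-s) * (Real.pi / 6)) :=
        Real.sin_pos_of_pos_of_lt_pi (by nlinarith) (by nlinarith)
      rw [neg_mul, Real.sin_neg] at h8
      linarith
  rw [move_sq]
  have h9 : ε * ε = 1 := by rcases hε with rfl | rfl <;> norm_num
  have e : κ * (8 * (Real.sin (s * (Real.pi / 6)) * Real.sin ((s - j) * (Real.pi / 6)) *
      Real.cos (j * (Real.pi / 6)))) = 8 * ((ε * Real.sin (s * (Real.pi / 6))) *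
      (κ * (ε * (Real.sin ((s - j) * (Real.pi / 6)) * Real.cos (j * (Real.pi / 6)))))) := by
    linear_combination (-8 * κ * Real.sin (s * (Real.pi / 6)) *
      Real.sin ((s - j) * (Real.pi / 6)) * Real.cos (j * (Real.pi / 6))) * h9
  rw [e]
  nlinarith [mul_neg_of_pos_of_neg h7 hs]

/-- the fixed letter point is inside the circles about the moving slot points -/
theorem near_lt {j : ℝ} (hε : ε = 1 ∨ ε = -1) (hj : 0 < ε * Real.sin (j * (Real.pi / 3)))
    (w : ℂ) (t : ℝ) : ∀ᶠ s : ℝ in 𝓝 0, 0 < ε * s →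
      dist (pt (pt w t) (t + j)) (pt w (t + s)) < 1 := by
  have hj' : 0 < (1 : ℝ) * (ε * Real.sin (j * (Real.pi / 3))) := by rwa [one_mul]
  filter_upwards [near_aux hε hj' w t] with s hs h0
  rw [(sq_lt dist_nonneg).1]
  have := hs h0
  linarith

/-- the fixed letter point is outside the circles about the moving slot points -/
theorem near_gt {j : ℝ} (hε : ε = 1 ∨ ε = -1) (hj : ε * Real.sin (j * (Real.pi / 3)) < 0)
    (w : ℂ) (t : ℝ) : ∀ᶠ s : ℝ in 𝓝 0, 0 < ε * s →
      1 < dist (pt (pt w t) (t + j)) (pt w (t + s)) := by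
  have hj' : 0 < (-1 : ℝ) * (ε * Real.sin (j * (Real.pi / 3))) := by linarith
  filter_upwards [near_aux hε hj' w t] with s hs h0
  rw [(sq_lt dist_nonneg).2]
  have := hs h0
  linarith

/-- the points of the limit column -/
theorem freq_col (hF : (F : Filter ℝ) ≤ 𝓝 u) (hs : ∀ᶠ v in (F : Filter ℝ), 0 < ε * (v - u))
    {Q : ℂ → Prop} (hQ : ∀ᶠ s : ℝ in 𝓝 0, 0 < ε * s → Q (pt w (u + k + s))) :
    ∃ᶠ x in 𝓝 (pt w (u + k)), T x = lt F T w k ∧ Q x := by
  have h1 : Tendsto (fun v : ℝ => v - u) (F : Filter ℝ) (𝓝 0) := by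
    have hc : Continuous fun v : ℝ => v - u := by fun_prop
    have := (hc.tendsto u).mono_left hF
    rwa [sub_self] at this
  have h2 : ∀ᶠ v in (F : Filter ℝ), T (pt w (v + k)) = lt F T w k ∧ Q (pt w (v + k)) := by
    filter_upwards [lt_spec F T w k, hs, h1.eventually hQ] with v a b c
    refine ⟨a, ?_⟩
    have := c b
    rwa [show u + k + (v - u) = v + k by ring] at this
  exact (tendsto_slot hF w k).frequently h2.frequently

/-- **Outside.** -/
theorem dj_out (h : Irr U T) (hF : (F : Filter ℝ) ≤ 𝓝 u) (hε : ε = 1 ∨ ε = -1)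
    (hs : ∀ᶠ v in (F : Filter ℝ), 0 < ε * (v - u)) (hl : LcF F T w k)
    (hm : ∀ᶠ v in (F' : Filter ℝ), 0 < ε * Real.sin ((v - u + m - k) * (Real.pi / 3))) :
    ∃ i, i ∉ lt F T w k ∧ Out F' T (pt w (u + k)) m i := by
  by_contra hcon
  push Not at hcon
  have h1 : ∀ᶠ v in (F' : Filter ℝ), ∀ i, i ∉ lt F T w k →
      ¬ OccIn T (pt (pt w (u + k)) (v + m)) {x | 1 < dist x (pt w (u + k))} i := by
    refine eventually_all.2 fun i => ?_
    by_cases hi : i ∈ lt F T w k
    · exact Eventually.of_forall fun _ h2 => absurd hi h2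
    · exact (not_out (hcon i hi)).mono fun _ h2 _ => h2
  obtain ⟨v, h2, h3⟩ := (h1.and hm).exists
  have hd : dist (pt (pt w (u + k)) (v + m)) (pt w (u + k)) = 1 := dist_pt _ _
  set c : ℂ := pt w (u + k) with hc
  set y : ℂ := pt c (v + m) with hy
  have e : y = pt (pt w (u + k)) (u + k + (v - u + m - k)) := by
    rw [hy, hc]
    congr 1
    ring
  have h0 : y - c ≠ 0 := by
    intro h5
    rw [dist_eq_norm, h5, norm_zero] at hd
    exact zero_ne_one hd
  have hout : ∀ᶠ s : ℝ in 𝓝[>] 0, 1 < dist (y + s * (y - c)) c := by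
    refine seg_out hd h0 ?_
    have h5 : 0 < Complex.normSq (y - c) := Complex.normSq_pos.2 h0
    rw [Complex.normSq_apply] at h5
    unfold ip
    simp only [Complex.sub_re, Complex.sub_im] at h5 ⊢
    nlinarith
  obtain ⟨i, hi, hi'⟩ := cell_sweep h (u := c) (p := y) (m := y - c)
    (C := {x | 1 < dist x c}) (isOpen_lt continuous_const (continuous_id.dist continuous_const))
    hout (P := lt F T w k) (lt_card h hl) (σ := -1) (hout.mono fun s h5 => by linarith)
    (by
      refine (freq_col (k := k) hF hs (Q := fun x => 0 < -1 * (dist y x - 1)) ?_)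
      filter_upwards [near_lt hε h3 w (u + k)] with s h5 h6
      have := h5 h6
      rw [← e] at this
      linarith)
  exact h2 i hi hi'

/-- **Inside.** -/
theorem dj_inn (h : Irr U T) (hF : (F : Filter ℝ) ≤ 𝓝 u) (hε : ε = 1 ∨ ε = -1)
    (hs : ∀ᶠ v in (F : Filter ℝ), 0 < ε * (v - u)) (hl : LcF F T w k)
    (hm : ∀ᶠ v in (F' : Filter ℝ), ε * Real.sin ((v - u + m - k) * (Real.pi / 3)) < 0) :
    ∃ i, i ∉ lt F T w k ∧ Inn F' T (pt w (u + k)) m i := by
  by_contra hcon
  push Not at hcon
  have h1 : ∀ᶠ v in (F' : Filter ℝ), ∀ i, i ∉ lt F T w k →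
      ¬ OccIn T (pt (pt w (u + k)) (v + m)) {x | dist x (pt w (u + k)) < 1} i := by
    refine eventually_all.2 fun i => ?_
    by_cases hi : i ∈ lt F T w k
    · exact Eventually.of_forall fun _ h2 => absurd hi h2
    · exact (not_inn (hcon i hi)).mono fun _ h2 _ => h2
  obtain ⟨v, h2, h3⟩ := (h1.and hm).exists
  have hd : dist (pt (pt w (u + k)) (v + m)) (pt w (u + k)) = 1 := dist_pt _ _
  set c : ℂ := pt w (u + k) with hc
  set y : ℂ := pt c (v + m) with hy
  have e : y = pt (pt w (u + k)) (u + k + (v - u + m - k)) := by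
    rw [hy, hc]
    congr 1
    ring
  have h0 : c - y ≠ 0 := by
    intro h5
    rw [dist_comm, dist_eq_norm, h5, norm_zero] at hd
    exact zero_ne_one hd
  have hinn : ∀ᶠ s : ℝ in 𝓝[>] 0, dist (y + s * (c - y)) c < 1 := by
    refine seg_in hd ?_
    have h5 : 0 < Complex.normSq (c - y) := Complex.normSq_pos.2 h0
    rw [Complex.normSq_apply] at h5
    exact h5
  obtain ⟨i, hi, hi'⟩ := cell_sweep h (u := c) (p := y) (m := c - y)
    (C := {x | dist x c < 1}) (isOpen_lt (continuous_id.dist continuous_const) continuous_const)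
    hinn (P := lt F T w k) (lt_card h hl) (σ := 1) (hinn.mono fun s h5 => by linarith)
    (by
      refine (freq_col (k := k) hF hs (Q := fun x => 0 < 1 * (dist y x - 1)) ?_)
      filter_upwards [near_gt hε h3 w (u + k)] with s h5 h6
      have := h5 h6
      rw [← e] at this
      linarith)
  exact h2 i hi hi'

/-! ### The sign -/

/-- outer side (`true`) or inner side: `σ` = side of the column of `w` (`true` = after), `σ'` = side
of the column of `S(p)`, `d` = slot of `S(p)` minus slot of `w` -/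
def djo (σ σ' : Bool) (d : Fin 6) : Bool :=
  if d = 0 then σ == σ' else if d = 3 then σ != σ' else if d = 1 ∨ d = 2 then σ else !σ

/-- the sign of a side -/
def sgn183 (σ : Bool) : ℝ := if σ then 1 else -1

theorem sgn183_or (σ : Bool) : sgn183 σ = 1 ∨ sgn183 σ = -1 := by
  cases σ <;> simp [sgn183]

theorem sin_slot {σ σ' : Bool} {d : Fin 6} {a : ℝ} (ha : 0 < sgn183 σ' * a) (ha1 : |a| < 1) :
    0 < sgn183 (djo σ σ' d) * (sgn183 σ * Real.sin ((a + d.val) * (Real.pi / 3))) := by
  have hp := Real.pi_pos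
  have hpos : ∀ x : ℝ, 0 < x → x < 3 → 0 < Real.sin (x * (Real.pi / 3)) := fun x h0 h1 =>
    Real.sin_pos_of_pos_of_lt_pi (by positivity) (by nlinarith)
  have hneg : ∀ x : ℝ, 3 < x → x < 6 → Real.sin (x * (Real.pi / 3)) < 0 := fun x h0 h1 => by
    have e : x * (Real.pi / 3) = (x - 3) * (Real.pi / 3) + Real.pi := by ring
    rw [e, Real.sin_add_pi]
    linarith [hpos (x - 3) (by linarith) (by linarith)]
  have hneg' : ∀ x : ℝ, x < 0 → -3 < x → Real.sin (x * (Real.pi / 3)) < 0 := fun x h0 h1 => by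
    have e : x * (Real.pi / 3) = -((-x) * (Real.pi / 3)) := by ring
    rw [e, Real.sin_neg]
    linarith [hpos (-x) (by linarith) (by linarith)]
  rw [abs_lt] at ha1
  obtain ⟨h1, h2⟩ := ha1
  fin_cases d
  · -- 0
    cases σ <;> cases σ' <;> simp [djo, sgn183] at ha ⊢
    · exact hneg' a ha (by linarith)
    · exact hpos a ha (by linarith)
    · exact hneg' a ha (by linarith)
    · exact hpos a ha (by linarith)
  · have := hpos (a + 1) (by linarith) (by linarith)
    cases σ <;> cases σ' <;> simp [djo, sgn183] at ha ⊢ <;> exact this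
  · have := hpos (a + 2) (by linarith) (by linarith)
    cases σ <;> cases σ' <;> simp [djo, sgn183] at ha ⊢ <;> exact this
  · cases σ <;> cases σ' <;> simp [djo, sgn183] at ha ⊢
    · exact hpos (a + 3) (by linarith) (by linarith)
    · exact hneg (a + 3) (by linarith) (by linarith)
    · exact hpos (a + 3) (by linarith) (by linarith)
    · exact hneg (a + 3) (by linarith) (by linarith)
  · have := hneg (a + 4) (by linarith) (by linarith)
    cases σ <;> cases σ' <;> simp [djo, sgn183] at ha ⊢ <;> exact this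
  · have := hneg (a + 5) (by linarith) (by linarith)
    cases σ <;> cases σ' <;> simp [djo, sgn183] at ha ⊢ <;> exact this

end Vale.Agent.P032.H183
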