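import Vale.Agent.P032.H183.Dj
import Vale.Agent.P032.H437.Fr

/-!
# P032: the letters-only sweep in the frame of 437 (F6 and F7 of 485's list, strong form)

`Fr.dj` : for every centre `w = lp z u m n`, every slot `k` of `w`, every slot `l` of the circle about
the slot point, both sides `σ` (column of `w`) and `σ'` (column of `S(p)`): a colour outside the whole
limit palette of the slot `k` occurs at the slot `l` of `S(p)` outside (`djo σ σ' (l - k) = true`) or
inside.
-/

open Set Filter Topology Metric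

noncomputable section

namespace Vale.Agent.P032.H183

open Vale.Agent.P032.Six Vale.Agent.P032.Sweep Vale.Agent.P032.S5.H767 Vale.Agent.P032.S5.H122
  Vale.Agent.P032.H158 Vale.Agent.P032.H782 Vale.Agent.P032.H437

variable {U : Fin 6 → Set ℂ} {T : ℂ → Set (Fin 6)} {F : Bool → Ultrafilter ℝ} {z w : ℂ} {u : ℝ}

theorem fr_nhds (H : Fr U T u F) (σ : Bool) : (F σ : Filter ℝ) ≤ 𝓝 u := by
  cases σ
  · exact H.left.trans nhdsWithin_le_nhds
  · exact H.right.trans nhdsWithin_le_nhds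

theorem fr_side (H : Fr U T u F) (σ : Bool) :
    ∀ᶠ v in (F σ : Filter ℝ), 0 < sgn183 σ * (v - u) := by
  cases σ
  · have h1 : ∀ᶠ v in (F false : Filter ℝ), v ∈ Iio u := H.left self_mem_nhdsWithin
    filter_upwards [h1] with v hv
    have hv : v < u := hv
    simp only [sgn183]
    norm_num
    exact hv
  · have h1 : ∀ᶠ v in (F true : Filter ℝ), v ∈ Ioi u := H.right self_mem_nhdsWithin
    filter_upwards [h1] with v hv
    have hv : u < v := hv
    simp only [sgn183]
    norm_num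
    exact hv

theorem fin_diff (k l : Fin 6) : ((l.val : ℤ) - k.val = (l - k).val) ∨
    ((l.val : ℤ) - k.val = (l - k).val - 6) := by
  revert k l; decide

theorem sin_fin (a : ℝ) (k l : Fin 6) : Real.sin ((a + l.val - k.val) * (Real.pi / 3)) =
    Real.sin ((a + (l - k).val) * (Real.pi / 3)) := by
  rcases fin_diff k l with h | h
  · have h1 : ((l.val : ℝ) - k.val) = ((l - k).val : ℝ) := by exact_mod_cast h
    rw [show a + (l.val : ℝ) - k.val = a + ((l.val : ℝ) - k.val) by ring, h1]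
  · have h1 : ((l.val : ℝ) - k.val) = ((l - k).val : ℝ) - 6 := by exact_mod_cast h
    rw [show a + (l.val : ℝ) - k.val = a + ((l.val : ℝ) - k.val) by ring, h1,
      show (a + (((l - k).val : ℝ) - 6)) * (Real.pi / 3) =
        (a + ((l - k).val : ℝ)) * (Real.pi / 3) - 2 * Real.pi by ring, Real.sin_sub_two_pi]

theorem fr_sin (H : Fr U T u F) (σ σ' : Bool) (k l : Fin 6) : ∀ᶠ v in (F σ' : Filter ℝ),
    0 < sgn183 (djo σ σ' (l - k)) * (sgn183 σ *
      Real.sin ((v - u + l.val - k.val) * (Real.pi / 3))) := by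
  have h1 : ∀ᶠ v in (F σ' : Filter ℝ), |v - u| < 1 := by
    have hc : Continuous fun v : ℝ => |v - u| := by fun_prop
    refine (fr_nhds H σ') (hc.continuousAt.eventually (Iio_mem_nhds ?_))
    simp
  filter_upwards [fr_side H σ', h1] with v a b
  rw [sin_fin]
  exact sin_slot a b

/-- **the sweep at every slot, outside** -/
theorem fr_out (H : Fr U T u F) (w : ℂ) (σ σ' : Bool) (k l : Fin 6)
    (hd : djo σ σ' (l - k) = true) : ∃ i, i ∉ lt (F σ) T w (k.val : ℝ) ∧
      Out (F σ') T (pt w (u + (k.val : ℝ))) (l.val : ℝ) i := by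
  refine dj_out H.irr (fr_nhds H σ) (sgn183_or σ) (fr_side H σ) (H.lc σ w _) ?_
  filter_upwards [fr_sin H σ σ' k l] with v hv
  rw [hd] at hv
  simpa [sgn183] using hv

/-- **the sweep at every slot, inside** -/
theorem fr_inn (H : Fr U T u F) (w : ℂ) (σ σ' : Bool) (k l : Fin 6)
    (hd : djo σ σ' (l - k) = false) : ∃ i, i ∉ lt (F σ) T w (k.val : ℝ) ∧
      Inn (F σ') T (pt w (u + (k.val : ℝ))) (l.val : ℝ) i := by
  refine dj_inn H.irr (fr_nhds H σ) (sgn183_or σ) (fr_side H σ) (H.lc σ w _) ?_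
  filter_upwards [fr_sin H σ σ' k l] with v hv
  rw [hd] at hv
  have e : sgn183 false = -1 := by simp [sgn183]
  rw [e] at hv
  linarith

/-- **F6 + F7, lattice form, outside** -/
theorem lat_out (H : Fr U T u F) (z : ℂ) (m n : ℤ) (σ σ' : Bool) (k l : Fin 6)
    (hd : djo σ σ' (l - k) = true) : ∃ i, i ∉ lt (F σ) T (lp z u m n) (k.val : ℝ) ∧
      Out (F σ') T (lp z u (m + dx k) (n + dy k)) (l.val : ℝ) i := by
  have := fr_out H (lp z u m n) σ σ' k l hd
  rwa [lp_step] at this

/-- **F6 + F7, lattice form, inside** -/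
theorem lat_inn (H : Fr U T u F) (z : ℂ) (m n : ℤ) (σ σ' : Bool) (k l : Fin 6)
    (hd : djo σ σ' (l - k) = false) : ∃ i, i ∉ lt (F σ) T (lp z u m n) (k.val : ℝ) ∧
      Inn (F σ') T (lp z u (m + dx k) (n + dy k)) (l.val : ℝ) i := by
  have := fr_inn H (lp z u m n) σ σ' k l hd
  rwa [lp_step] at this

/-- the table of the sides -/
theorem djo_table : (∀ σ σ' : Bool, djo σ σ' 0 = (σ == σ')) ∧ (∀ σ σ' : Bool, djo σ σ' 1 = σ) ∧
    (∀ σ σ' : Bool, djo σ σ' 2 = σ) ∧ (∀ σ σ' : Bool, djo σ σ' 3 = (σ != σ')) ∧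
    (∀ σ σ' : Bool, djo σ σ' 4 = !σ) ∧ ∀ σ σ' : Bool, djo σ σ' 5 = !σ := by
  decide

end Vale.Agent.P032.H183
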